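import Vale.Agent.P333.Y.Defs
import Vale.Agent.P333.H950.M0
import Vale.Agent.P333.H359.Inst

set_option linter.all false

/-!
P333, ratio `2`, part M3: the base cost of the classes and the numbers of leaving arcs.
-/

namespace Vale.Agent.P333.H802

open Vale.Agent.P333 Vale.Agent.P333.U Vale.Agent.P333.E Vale.Agent.P333.G Vale.Agent.P333.Y
  Vale.Agent.P333.H359

variable {S : List (List ℕ)} {L F : List Cir}

theorem flat_nodup' (hS : Sfree S) (hL : MinCover S L) : L.flatten.Nodup := by
  refine hL.perm.nodup_iff.2 (List.Pairwise.imp ?_ hS.2)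
  intro a b h he
  subst he
  exact h.1 (List.infix_refl _)

/-- Two circles with a common string are equal (also as indices). -/
theorem idx_eq (hnd : L.flatten.Nodup) {j k : ℕ} (hj : j < L.length) (hk : k < L.length)
    {s : List ℕ} (hsj : s ∈ L.getD j []) (hsk : s ∈ L.getD k []) : j = k := by
  rw [List.getD_eq_getElem _ _ hj] at hsj
  rw [List.getD_eq_getElem _ _ hk] at hsk
  rw [List.nodup_flatten] at hnd
  have h2 := List.pairwise_iff_getElem.1 hnd.2
  rcases lt_trichotomy j k with h | h | h
  · exact absurd hsk (fun h' => h2 j k hj hk h hsj h')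
  · exact h
  · exact absurd hsj (fun h' => h2 k j hk hj h hsk h')

theorem lab_spec (hnd : L.flatten.Nodup) {k : ℕ} (hk : k < L.length) {s : List ℕ}
    (hs : s ∈ L.getD k []) : Y.lab L s = k := by
  have hex : ∃ c ∈ L, decide (s ∈ c) = true :=
    ⟨L[k], List.getElem_mem _, by
      rw [List.getD_eq_getElem _ _ hk] at hs; exact decide_eq_true hs⟩
  have h1 : Y.lab L s < L.length := List.findIdx_lt_length.2 hex
  have h2 : s ∈ L.getD (Y.lab L s) [] := by
    have := List.findIdx_getElem (xs := L) (p := fun c => decide (s ∈ c)) (w := h1)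
    rw [List.getD_eq_getElem _ _ h1]
    exact of_decide_eq_true this
  exact idx_eq hnd h1 hk h2 hs

theorem lab_lt' {s : List ℕ} (hs : s ∈ L.flatten) : Y.lab L s < L.length ∧
    s ∈ L.getD (Y.lab L s) [] := by
  obtain ⟨c, hc, hsc⟩ := List.mem_flatten.1 hs
  have h1 : Y.lab L s < L.length := List.findIdx_lt_length.2 ⟨c, hc, decide_eq_true hsc⟩
  refine ⟨h1, ?_⟩
  have := List.findIdx_getElem (xs := L) (p := fun c => decide (s ∈ c)) (w := h1)
  rw [List.getD_eq_getElem _ _ h1]
  exact of_decide_eq_true this

theorem mem_iff_lab (hnd : L.flatten.Nodup) {k : ℕ} (hk : k < L.length) {s : List ℕ}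
    (hs : s ∈ L.flatten) : s ∈ L.getD k [] ↔ Y.lab L s = k := by
  constructor
  · exact lab_spec hnd hk
  · rintro rfl
    exact (lab_lt' hs).2

/-- All strings of a class are in the same circle. -/
theorem lab_node (hnd : L.flatten.Nodup) {n : Cir} (hn : n ∈ nodes L F) {s t : List ℕ}
    (hs : s ∈ n) (ht : t ∈ n) : Y.lab L s = Y.lab L t := by
  unfold nodes at hn
  obtain ⟨c, hc, hn⟩ := List.mem_flatMap.1 hn
  split_ifs at hn with h
  · rw [List.mem_singleton] at hn
    subst hn
    obtain ⟨k, hk, rfl⟩ := List.getElem_of_mem hc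
    rw [← List.getD_eq_getElem L [] hk] at hs ht
    rw [lab_spec hnd hk hs, lab_spec hnd hk ht]
  · obtain ⟨u, hu, rfl⟩ := List.mem_map.1 hn
    rw [List.mem_singleton] at hs ht
    rw [hs, ht]

theorem getD_perm_lt {n : ℕ} {P : List ℕ} (hP : P.Perm (List.range n)) {i : ℕ} (hi : i < n) :
    P.getD i 0 < n := by
  have h1 : i < P.length := by rw [hP.length_eq, List.length_range]; exact hi
  rw [List.getD_eq_getElem _ _ h1]
  exact List.mem_range.1 (hP.mem_iff.1 (List.getElem_mem _))

theorem headD_mem {n : Cir} (hn : n ≠ []) : n.headD [] ∈ n := by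
  obtain ⟨x, r, rfl⟩ := List.exists_cons_of_ne_nil hn
  exact List.mem_cons_self

theorem countP_range_eq_card (n : ℕ) (p : ℕ → Bool) :
    (List.range n).countP p = (Finset.univ.filter (fun i : Fin n => p i = true)).card := by
  have h1 : (List.range n).countP p = ∑ i ∈ Finset.range n, if p i = true then 1 else 0 := by
    induction n with
    | zero => rfl
    | succ n ih =>
      rw [List.range_succ, List.countP_append, ih, Finset.sum_range_succ, List.countP_singleton]
  rw [h1, Finset.card_filter, Finset.sum_range]

/-- The number of leaving arcs. -/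
theorem lv_card (hS : Sfree S) (hL : MinCover S L) {P : List ℕ}
    (hP : P.Perm (List.range (nodes L F).length)) {k : ℕ} (hk : k < L.length)
    (h a : Fin (nodes L F).length → VS L)
    (hh : ∀ i : Fin (nodes L F).length, str L (h i) ∈ (nodes L F).getD i [])
    (ha : ∀ i : Fin (nodes L F).length, str L (a i) ∈ (nodes L F).getD (P.getD i 0) []) :
    lv (nodes L F) P (L.getD k []) =
      (Finset.univ.filter (fun i : Fin (nodes L F).length =>
        labV L (h i) = k ∧ labV L (a i) ≠ k)).card := by
  have hnd := flat_nodup' hS hL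
  unfold lv
  rw [countP_range_eq_card]
  congr 1
  refine Finset.filter_congr (fun i _ => ?_)
  have key : ∀ j < (nodes L F).length, ∀ v : VS L, str L v ∈ (nodes L F).getD j [] →
      (((nodes L F).getD j []).headD [] ∈ L.getD k [] ↔ labV L v = k) := by
    intro j hj v hv
    have hn : (nodes L F).getD j [] ∈ nodes L F := by
      rw [List.getD_eq_getElem _ _ hj]; exact List.getElem_mem _
    have hne := H950.nodes_ne hL.ne hn
    have hhd := headD_mem hne
    rw [mem_iff_lab hnd hk (H950.mem_of_nodes hn hhd), lab_node hnd hn hhd hv]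
    rfl
  rw [Bool.and_eq_true, Bool.not_eq_true', decide_eq_true_eq, decide_eq_false_iff_not,
    key i i.2 (h i) (hh i), key _ (getD_perm_lt hP i.2) (a i) (ha i)]

theorem sum_fin_get {α : Type} (l : List α) (g : α → ℕ) :
    ∑ i : Fin l.length, g (l.get i) = (l.map g).sum := by
  rw [← List.sum_ofFn]
  congr 1
  conv_rhs => rw [← List.ofFn_get l]
  rw [List.map_ofFn]
  rfl

theorem sum_range_getD {α : Type} (l : List α) (d : α) (g : α → ℕ) :
    ∑ k ∈ Finset.range l.length, g (l.getD k d) = (l.map g).sum := by
  rw [Finset.sum_range, ← sum_fin_get]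
  refine Finset.sum_congr rfl (fun i _ => ?_)
  rw [List.getD_eq_getElem _ _ i.2]
  rfl

/-- The cost of the classes. -/
theorem base_sum (hS : Sfree S) (hL : MinCover S L) (hF : FOk L F) :
    ((nodes L F).map (base2 F)).sum =
      ∑ u : VS L with labV L u ∉ Fs L F, 2 * (str L u).length +
        ∑ k ∈ Fs L F, 2 * cycW (L.getD k []) := by
  classical
  have hnd := flat_nodup' hS hL
  -- left side
  have h1 : ((nodes L F).map (base2 F)).sum =
      (L.map (fun c => (if c ∈ F then 0 else (c.map (fun s => 2 * s.length)).sum) +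
        (if c ∈ F then 2 * cycW c else 0))).sum := by
    unfold nodes
    rw [List.map_flatMap, List.flatMap_def, List.sum_flatten, List.map_map]
    congr 1
    refine List.map_congr_left (fun c hc => ?_)
    show ((List.map (base2 F) (if decide (c ∈ F) = true then [c] else c.map fun s => [s]))).sum = _
    by_cases hcF : c ∈ F
    · rw [if_pos (decide_eq_true hcF), if_pos hcF, if_pos hcF]
      simp [base2, hcF]
    · rw [if_neg (by simpa using hcF), if_neg hcF, if_neg hcF, add_zero, List.map_map]
      congr 1
      refine List.map_congr_left (fun s hs => ?_)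
      show base2 F [s] = 2 * s.length
      unfold base2
      rw [if_neg]
      · rfl
      · intro h
        have h2 : [s] ∈ F := of_decide_eq_true h
        obtain ⟨j, hj, hj2⟩ := List.getElem_of_mem (hF.sub _ h2)
        obtain ⟨k, hk, hk2⟩ := List.getElem_of_mem hc
        have h3 : j = k := idx_eq hnd hj hk (s := s)
          (by rw [List.getD_eq_getElem _ _ hj, hj2]; exact List.mem_singleton_self _)
          (by rw [List.getD_eq_getElem _ _ hk, hk2]; exact hs)
        subst h3
        rw [hj2] at hk2
        exact hcF (hk2 ▸ h2)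
  -- first sum of the right side
  have h2 : ∑ u : VS L with labV L u ∉ Fs L F, 2 * (str L u).length =
      (L.map (fun c => if c ∈ F then 0 else (c.map (fun s => 2 * s.length)).sum)).sum := by
    rw [Finset.sum_filter]
    have h3 := sum_fin_get L.flatten
      (fun s => if Y.lab L s ∉ Fs L F then 2 * s.length else 0)
    refine Eq.trans h3 ?_
    rw [List.map_flatten, List.sum_flatten, List.map_map]
    congr 1
    refine List.map_congr_left (fun c hc => ?_)
    show (List.map (fun s => if Y.lab L s ∉ Fs L F then 2 * s.length else 0) c).sum = _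
    obtain ⟨k, hk, rfl⟩ := List.getElem_of_mem hc
    have hmem : k ∈ Fs L F ↔ L[k] ∈ F := by
      unfold Fs
      rw [Finset.mem_filter, Finset.mem_range, List.getD_eq_getElem _ _ hk]
      exact ⟨fun h => h.2, fun h => ⟨hk, h⟩⟩
    have hlab : ∀ s ∈ L[k], Y.lab L s = k := fun s hs =>
      lab_spec hnd hk (by rw [List.getD_eq_getElem _ _ hk]; exact hs)
    by_cases hcF : L[k] ∈ F
    · rw [if_pos hcF]
      rw [List.sum_eq_zero]
      intro x hx
      obtain ⟨s, hs, rfl⟩ := List.mem_map.1 hx
      rw [hlab s hs, if_neg (not_not.2 (hmem.2 hcF))]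
    · rw [if_neg hcF]
      congr 1
      refine List.map_congr_left (fun s hs => ?_)
      rw [hlab s hs, if_pos (fun h => hcF (hmem.1 h))]
  -- second sum of the right side
  have h3 : ∑ k ∈ Fs L F, 2 * cycW (L.getD k []) =
      (L.map (fun c => if c ∈ F then 2 * cycW c else 0)).sum := by
    unfold Fs
    rw [Finset.sum_filter]
    exact sum_range_getD L [] (fun c => if c ∈ F then 2 * cycW c else 0)
  rw [h1, h2, h3, List.sum_map_add]

end Vale.Agent.P333.H802
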