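import Mathlib
import Vale.Agent.P333.Bdl.B1
import Vale.Agent.P333.X.PTc

set_option linter.all false

/-!
P333, ratio 2: generic combinators for polynomial time.
-/

namespace Vale.Agent.P333.H802

open Vale.Agent.P333 Vale.Agent.P333.U Vale.Agent.P333.E Vale.Agent.P333.G Vale.Agent.P333.X Vale.Agent.Lib.PolyTime

variable {A : Set Word} {α β γ δ : Type*} [Enc α] [Enc β] [Enc γ] [Enc δ]

/-- Folding with a function which always selects one of its two arguments. -/
theorem foldl_sel_mem {f : β → β → β} (hf : ∀ x y, f x y = x ∨ f x y = y) (l : List β) (b : β) :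
    l.foldl f b = b ∨ l.foldl f b ∈ l := by
  induction l generalizing b with
  | nil => exact Or.inl rfl
  | cons x l ih =>
    rw [List.foldl_cons]
    rcases ih (f b x) with h | h
    · rw [h]
      rcases hf b x with h' | h'
      · exact Or.inl h'
      · right
        rw [h']
        exact List.mem_cons_self
    · exact Or.inr (List.mem_cons_of_mem _ h)

theorem PT_foldl_sel {l : α → List β} {init : α → β} {f : α → β → β → β} (hl : PT A l)
    (hi : PT A init) (hf : PT A (fun p : α × β × β => f p.1 p.2.1 p.2.2))
    (hs : ∀ a x y, f a x y = x ∨ f a x y = y) : PT A (fun a => (l a).foldl (f a) (init a)) := by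
  refine PT.foldl hl hi hf (b := fun a => esize (init a) + esize (l a)) (hi.pbd.add hl.pbd)
    fun a i => ?_
  rcases foldl_sel_mem (hs a) ((l a).take i) (init a) with h | h
  · rw [h]; omega
  · have := esize_le_of_mem (List.mem_of_mem_take h)
    omega

/-- The first element with the largest (smallest) key. -/
theorem PT_argmax {l : α → List β} {init : α → β} {f : α → β → ℕ} (hl : PT A l)
    (hi : PT A init) (hf : PT A (fun p : α × β => f p.1 p.2)) :
    PT A (fun a => (l a).foldl (fun b e => if f a b < f a e then e else b) (init a)) := by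
  refine PT_foldl_sel (f := fun a b e => if f a b < f a e then e else b) hl hi ?_ fun a x y => ?_
  · exact PT.ite (p := fun p : α × β × β => f p.1 p.2.1 < f p.1 p.2.2)
      (PT.lt (hf.comp (PT.fst'.pair PT.snd'.fst)) (hf.comp (PT.fst'.pair PT.snd'.snd)))
      PT.snd'.snd PT.snd'.fst
  · split
    · exact Or.inr rfl
    · exact Or.inl rfl

theorem PT_argmin {l : α → List β} {init : α → β} {f : α → β → ℕ} (hl : PT A l)
    (hi : PT A init) (hf : PT A (fun p : α × β => f p.1 p.2)) :
    PT A (fun a => (l a).foldl (fun b e => if f a e < f a b then e else b) (init a)) := by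
  refine PT_foldl_sel (f := fun a b e => if f a e < f a b then e else b) hl hi ?_ fun a x y => ?_
  · exact PT.ite (p := fun p : α × β × β => f p.1 p.2.2 < f p.1 p.2.1)
      (PT.lt (hf.comp (PT.fst'.pair PT.snd'.snd)) (hf.comp (PT.fst'.pair PT.snd'.fst)))
      PT.snd'.snd PT.snd'.fst
  · split
    · exact Or.inr rfl
    · exact Or.inl rfl

theorem PT_argmaxNat {l : α → List ℕ} {i : α → ℕ} (hl : PT A l) (hi : PT A i) :
    PT A (fun a => (l a).foldl max (i a)) := by
  refine (PT_foldl_sel (f := fun _ u v => max u v) hl hi (PT.max PT.snd'.fst PT.snd'.snd)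
    fun a x y => ?_)
  rcases le_total x y with h | h
  · exact Or.inr (max_eq_right h)
  · exact Or.inl (max_eq_left h)

/-- Cartesian product of two lists. -/
theorem PT_product {l : α → List β} {m : α → List γ} (hl : PT A l) (hm : PT A m) :
    PT A (fun a => (l a).flatMap fun x => (m a).map fun y => (x, y)) :=
  PT.flatMap (f := fun a x => (m a).map fun y => (x, y)) hl
    (PT.map (f := fun (p : α × β) y => (p.2, y)) (hm.comp PT.fst') (PT.fst'.snd.pair PT.snd'))

/-- Sum of a function over a list. -/
theorem PT_sumMap {l : α → List β} {f : α → β → ℕ} (hl : PT A l)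
    (hf : PT A (fun p : α × β => f p.1 p.2)) : PT A (fun a => ((l a).map (f a)).sum) :=
  PT.sum (PT.map hl hf)

/-- A table: matrix of a function of two elements of a list. -/
theorem PT_table {l : α → List β} {m : α → List γ} {f : α → β → γ → δ} (hl : PT A l)
    (hm : PT A m) (hf : PT A (fun p : α × β × γ => f p.1 p.2.1 p.2.2)) :
    PT A (fun a => (l a).map fun x => (m a).map fun y => f a x y) := by
  refine PT.map (f := fun a x => (m a).map fun y => f a x y) hl ?_
  refine PT.map (f := fun (p : α × β) y => f p.1 p.2 y) (hm.comp PT.fst') ?_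
  exact hf.comp (PT.fst'.fst.pair (PT.fst'.snd.pair PT.snd'))

/-- Membership of a string in a list of strings. -/
theorem PT_memS {s : α → List ℕ} {l : α → List (List ℕ)} (hs : PT A s) (hl : PT A l) :
    PT A (fun a => decide (s a ∈ l a)) := PT_memStr hl hs

/-- Sizes: a list of pairs (x, n), x of size at most `X`, `n ≤ N`. -/
theorem esize_tab {l : List (β × ℕ)} {X N k : ℕ} (h1 : ∀ p ∈ l, esize p.1 ≤ X)
    (h2 : ∀ p ∈ l, p.2 ≤ N) (hk : l.length ≤ k) : esize l ≤ k * (2 * (2 * X + esize N + 1) + 1) := by
  refine (esize_list_le (B := 2 * X + esize N + 1) fun p hp => ?_).trans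
    (Nat.mul_le_mul_right _ hk)
  obtain ⟨x, n⟩ := p
  have e1 := h1 _ hp
  have e2 := esize_nat_mono (h2 _ hp)
  rw [esize_pair]
  dsimp only at e1 e2
  omega

end Vale.Agent.P333.H802
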