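import Mathlib
import Vale.Agent.P333.Y.Defs
import Vale.Agent.P333.H802.PTgen

set_option linter.all false

/-!
P333, ratio 2: polynomial time of the assignment problems, of the subgradient phase, and of the
selection.
-/

namespace Vale.Agent.P333.H802

open Vale.Agent.P333 Vale.Agent.P333.U Vale.Agent.P333.E Vale.Agent.P333.G Vale.Agent.P333.X
open Vale.Agent.Lib.PolyTime

variable {A : Set Word} {α : Type*} {β γ δ : Type} [Enc α] [Enc β] [Enc γ] [Enc δ]

theorem PT_memCir {c : α → Y.Cir} {F : α → List Y.Cir} (hc : PT A c) (hF : PT A F) :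
    PT A (fun a => decide (c a ∈ F a)) := by
  refine (PT.any (f := fun a y => decide (y = c a)) hF
    (PT_eqCirc PT.snd' (hc.comp PT.fst'))).congr fun a => ?_
  rw [Bool.eq_iff_iff]
  simp only [List.any_eq_true, decide_eq_true_eq]
  constructor
  · rintro ⟨x, hx, rfl⟩
    exact hx
  · intro h
    exact ⟨_, h, rfl⟩

theorem PT_memString {s : α → List ℕ} {c : α → Y.Cir} (hs : PT A s) (hc : PT A c) :
    PT A (fun a => decide (s a ∈ c a)) := PT_memStr hc hs

theorem PT_headDc {c : α → List β} {d : β} (hc : PT A c) : PT A (fun a => (c a).headD d) :=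
  PT.headD hc (PT.const d)

/-! ### The bound for the lengths -/

theorem PT_bnd {S : α → List (List ℕ)} (hS : PT A S) : PT A (fun a => Y.bnd (S a)) :=
  PT.add (PT.length (PT.flatten hS)) (PT.const 1)

theorem PBd_bnd {S : α → List (List ℕ)} (hS : PT A S) : PBd (fun a => Y.bnd (S a)) :=
  (PBd.length (PT.flatten hS)).add (PBd.const 1)

/-! ### Maxima and minima -/

theorem PT_amaxY {f : α → β → ℕ} {d : β} {l : α → List β} (hl : PT A l)
    (hf : PT A (fun p : α × β => f p.1 p.2)) : PT A (fun a => Y.amax (f a) d (l a)) :=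
  PT_argmax (f := f) hl (PT_headDc hl) hf

theorem PT_aminY {f : α → β → ℕ} {d : β} {l : α → List β} (hl : PT A l)
    (hf : PT A (fun p : α × β => f p.1 p.2)) : PT A (fun a => Y.amin (f a) d (l a)) :=
  PT_argmin (f := f) hl (PT_headDc hl) hf

/-! ### The matrices -/

theorem PT_nodes {L F : α → List Y.Cir} (hL : PT A L) (hF : PT A F) :
    PT A (fun a => Y.nodes (L a) (F a)) := by
  unfold Y.nodes
  refine PT.flatMap (f := fun a c => if decide (c ∈ F a) = true then [c] else c.map fun s => [s])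
    hL ?_
  refine PT.iteB (c := fun p : α × Y.Cir => decide (p.2 ∈ F p.1))
    (PT_memCir PT.snd' (hF.comp PT.fst')) (PT.cons PT.snd' PT.nil) ?_
  exact PT.map (f := fun _ s => [s]) PT.snd' (PT.cons PT.snd' PT.nil)

theorem PT_exs {F : α → List Y.Cir} {n : α → Y.Cir} (hF : PT A F) (hn : PT A n) :
    PT A (fun a => Y.exs (F a) (n a)) := by
  unfold Y.exs
  refine PT.iteB (c := fun a => decide (n a ∈ F a)) (PT_memCir hn hF) ?_ ?_
  · exact PT.map (f := fun _ (e : List ℕ × List ℕ) => (e.1, ov e.1 e.2)) (PT_cprs hn)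
      (PT.snd'.fst.pair (PT_ov PT.snd'.fst PT.snd'.snd))
  · exact PT.map (f := fun _ (s : List ℕ) => (s, 0)) hn (PT.snd'.pair (PT.const 0))

theorem PT_ens {F : α → List Y.Cir} {n : α → Y.Cir} (hF : PT A F) (hn : PT A n) :
    PT A (fun a => Y.ens (F a) (n a)) := by
  unfold Y.ens
  refine PT.iteB (c := fun a => decide (n a ∈ F a)) (PT_memCir hn hF) ?_ ?_
  · exact PT.map (f := fun _ (e : List ℕ × List ℕ) => (e.2, ov e.1 e.2)) (PT_cprs hn)
      (PT.snd'.snd.pair (PT_ov PT.snd'.fst PT.snd'.snd))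
  · exact PT.map (f := fun _ (s : List ℕ) => (s, 0)) hn (PT.snd'.pair (PT.const 0))

theorem PT_gv {B : α → ℕ} {p q : α → List ℕ × ℕ} (hB : PT A B) (hp : PT A p) (hq : PT A q) :
    PT A (fun a => Y.gv (B a) (p a) (q a)) :=
  PT.sub (PT.add (PT.mul (PT.const 2) hB) (PT.mul (PT.const 2) (PT_ov hp.fst hq.fst)))
    (PT.add hp.snd hq.snd)

theorem PT_eqNode {F : α → List Y.Cir} {n m : α → Y.Cir} (hF : PT A F) (hn : PT A n)
    (hm : PT A m) : PT A (fun a => decide (n a ∈ F a) && decide (n a = m a)) :=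
  PT.and (PT_memCir hn hF) (PT_eqCirc hn hm)

theorem PT_pk {B : α → ℕ} {F : α → List Y.Cir} {n m : α → Y.Cir} (hB : PT A B) (hF : PT A F)
    (hn : PT A n) (hm : PT A m) : PT A (fun a => Y.pk (B a) (F a) (n a) (m a)) := by
  unfold Y.pk
  refine PT.iteB (c := fun a => decide (n a ∈ F a) && decide (n a = m a)) (PT_eqNode hF hn hm)
    ?_ ?_
  · exact ((PT_getLastD hn (PT.const [])).pair (PT_cycO hn)).pair
      ((PT.headD hn (PT.const [])).pair (PT_cycO hn))
  · refine PT_amaxY (f := fun a (p : (List ℕ × ℕ) × (List ℕ × ℕ)) => Y.gv (B a) p.1 p.2) ?_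
      (PT_gv (hB.comp PT.fst') PT.snd'.fst PT.snd'.snd)
    exact PT_product (PT_exs hF hn) (PT_ens hF hm)

theorem PT_gn {B : α → ℕ} {F : α → List Y.Cir} {n m : α → Y.Cir} (hB : PT A B) (hF : PT A F)
    (hn : PT A n) (hm : PT A m) : PT A (fun a => Y.gn (B a) (F a) (n a) (m a)) := by
  unfold Y.gn
  refine PT.iteB (c := fun a => decide (n a ∈ F a) && decide (n a = m a)) (PT_eqNode hF hn hm)
    ?_ ?_
  · exact PT.sub (PT.add (PT.mul (PT.const 2) hB) (PT.mul (PT.const 2) (PT_cycW hn)))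
      (PT.mul (PT.const 2) (PT_cycO hn))
  · exact PT_gv hB (PT_pk hB hF hn hm).fst (PT_pk hB hF hn hm).snd

theorem PT_gmat {B : α → ℕ} {F N : α → List Y.Cir} (hB : PT A B) (hF : PT A F) (hN : PT A N) :
    PT A (fun a => Y.gmat (B a) (F a) (N a)) := by
  unfold Y.gmat
  refine PT_table (f := fun a n m => Y.gn (B a) (F a) n m) hN hN ?_
  exact PT_gn (hB.comp PT.fst') (hF.comp PT.fst') PT.snd'.fst PT.snd'.snd

theorem PT_asgF {asg : List Unit × List (List ℕ) → List ℕ} (ha : PT A asg) {B : α → ℕ}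
    {F N : α → List Y.Cir} (hB : PT A B) (hBb : PBd B) (hF : PT A F) (hN : PT A N) :
    PT A (fun a => Y.asgF asg (B a) (F a) (N a)) := by
  unfold Y.asgF
  exact ha.comp ((PT.replicate (PT.mul (PT.const 4) hB) ((PBd.const 4).mul hBb)
    (PT.const ())).pair (PT_gmat hB hF hN))

theorem PT_lv {N : α → List Y.Cir} {P : α → List ℕ} {c : α → Y.Cir} (hN : PT A N) (hP : PT A P)
    (hc : PT A c) : PT A (fun a => Y.lv (N a) (P a) (c a)) := by
  unfold Y.lv
  refine PT_countP (f := fun a i => decide (((N a).getD i []).headD [] ∈ c a) &&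
    !decide (((N a).getD ((P a).getD i 0) []).headD [] ∈ c a)) (PT.range hN.length
      (PBd.length hN)) ?_
  have hN' : PT A (fun p : α × ℕ => N p.1) := hN.comp PT.fst'
  have hP' : PT A (fun p : α × ℕ => P p.1) := hP.comp PT.fst'
  have hc' : PT A (fun p : α × ℕ => c p.1) := hc.comp PT.fst'
  exact PT.and (PT_memString (PT.headD (PT.getD hN' PT.snd' (PT.const [])) (PT.const [])) hc')
    (PT_memString (PT.headD (PT.getD hN' (PT.getD hP' PT.snd' (PT.const 0)) (PT.const []))
      (PT.const [])) hc').not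

theorem PT_lab {L : α → List Y.Cir} {s : α → List ℕ} (hL : PT A L) (hs : PT A s) :
    PT A (fun a => Y.lab (L a) (s a)) := by
  unfold Y.lab
  refine (PT.length (PT.takeWhile (f := fun a c => !decide (s a ∈ c)) hL
    (PT_memString (hs.comp PT.fst') PT.snd').not)).congr fun a => ?_
  generalize L a = l
  induction l with
  | nil => rfl
  | cons c l ih =>
    rw [List.findIdx_cons]
    by_cases h : s a ∈ c
    · simp [h]
    · simp [h, ih]

theorem PT_smat {R : α → ℕ} {L N : α → List Y.Cir} {μ : α → List ℕ} (hR : PT A R) (hL : PT A L)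
    (hN : PT A N) (hμ : PT A μ) : PT A (fun a => Y.smat (R a) (L a) (N a) (μ a)) := by
  unfold Y.smat
  refine PT_table (f := fun a (n m : Y.Cir) => R a * ov (n.headD []) (m.headD []) +
    if decide (Y.lab (L a) (n.headD []) = Y.lab (L a) (m.headD [])) = true then 0
    else (μ a).getD (Y.lab (L a) (n.headD [])) 0) hN hN ?_
  have h1 : PT A (fun p : α × Y.Cir × Y.Cir => p.2.1.headD []) :=
    PT.headD PT.snd'.fst (PT.const [])
  have h2 : PT A (fun p : α × Y.Cir × Y.Cir => p.2.2.headD []) :=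
    PT.headD PT.snd'.snd (PT.const [])
  have hL' : PT A (fun p : α × Y.Cir × Y.Cir => L p.1) := hL.comp PT.fst'
  refine PT.add (PT.mul (hR.comp PT.fst') (PT_ov h1 h2)) ?_
  exact PT.iteB (c := fun p : α × Y.Cir × Y.Cir => decide (Y.lab (L p.1) (p.2.1.headD []) =
    Y.lab (L p.1) (p.2.2.headD []))) (PT.eqNat (PT_lab hL' h1) (PT_lab hL' h2)) (PT.const 0)
    (PT.getD (hμ.comp PT.fst') (PT_lab hL' h1) (PT.const 0))

theorem PT_subP {asg : List Unit × List (List ℕ) → List ℕ} (ha : PT A asg) {B R T : α → ℕ}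
    {L : α → List Y.Cir} {μ : α → List ℕ} (hB : PT A B) (hBb : PBd B) (hR : PT A R)
    (hRb : PBd R) (hT : PT A T) (hTb : PBd T) (hL : PT A L) (hμ : PT A μ) :
    PT A (fun a => Y.subP asg (B a) (R a) (T a) (L a) (μ a)) := by
  unfold Y.subP
  exact ha.comp ((PT.replicate (PT.add (PT.mul hR hB) hT) ((hRb.mul hBb).add hTb)
    (PT.const ())).pair (PT_smat hR hL (PT_nodes hL (PT.const [])) hμ))

theorem PT_subStep {asg : List Unit × List (List ℕ) → List ℕ} (ha : PT A asg) {B R T : α → ℕ}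
    {L : α → List Y.Cir} {st : α → List ℕ × List ℕ} (hB : PT A B) (hBb : PBd B) (hR : PT A R)
    (hRb : PBd R) (hT : PT A T) (hTb : PBd T) (hL : PT A L) (hst : PT A st) :
    PT A (fun a => Y.subStep asg (B a) (R a) (T a) (L a) (st a)) := by
  unfold Y.subStep
  have hP := PT_subP ha hB hBb hR hRb hT hTb hL hst.fst
  have hr : PT A (fun a => List.range (L a).length) := PT.range hL.length (PBd.length hL)
  have hc : PT A (fun p : α × ℕ => (L p.1).getD p.2 []) :=
    PT.getD (hL.comp PT.fst') PT.snd' (PT.const [])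
  have hlv : PT A (fun p : α × ℕ => Y.lv (Y.nodes (L p.1) [])
      (Y.subP asg (B p.1) (R p.1) (T p.1) (L p.1) (st p.1).1) ((L p.1).getD p.2 [])) :=
    PT_lv ((PT_nodes hL (PT.const [])).comp PT.fst') (hP.comp PT.fst') hc
  refine PT.pair ?_ ?_
  · refine PT.map (f := fun a k => if big ((L a).getD k []) = true then
      (st a).1.getD k 0 + 1 - Y.lv (Y.nodes (L a) [])
        (Y.subP asg (B a) (R a) (T a) (L a) (st a).1) ((L a).getD k []) else 0) hr ?_
    exact PT.iteB (c := fun p : α × ℕ => big ((L p.1).getD p.2 [])) (PT_big hc)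
      (PT.sub (PT.add (PT.getD (hst.comp PT.fst').fst PT.snd' (PT.const 0)) (PT.const 1)) hlv)
      (PT.const 0)
  · refine PT.map (f := fun a k => (st a).2.getD k 0 + Y.lv (Y.nodes (L a) [])
        (Y.subP asg (B a) (R a) (T a) (L a) (st a).1) ((L a).getD k [])) hr ?_
    exact PT.add (PT.getD (hst.comp PT.fst').snd PT.snd' (PT.const 0)) hlv

/-! ### Sizes in the subgradient phase -/

theorem lv_le (N : List Y.Cir) (P : List ℕ) (c : Y.Cir) : Y.lv N P c ≤ N.length := by
  unfold Y.lv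
  exact List.countP_le_length.trans (by simp)

theorem getD_le {l : List ℕ} {b : ℕ} (h : ∀ x ∈ l, x ≤ b) (k : ℕ) : l.getD k 0 ≤ b := by
  rw [List.getD_eq_getElem?_getD]
  rcases hk : l[k]? with _ | x
  · simp
  · exact h x (List.mem_of_getElem? hk)

theorem sub_bound (asg : List Unit × List (List ℕ) → List ℕ) (B R T : ℕ) (L : List Y.Cir)
    (j : ℕ) :
    (((Y.subStep asg B R T L)^[j] ([], [])).1.length ≤ L.length ∧
      ∀ x ∈ ((Y.subStep asg B R T L)^[j] ([], [])).1, x ≤ j) ∧
    (((Y.subStep asg B R T L)^[j] ([], [])).2.length ≤ L.length ∧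
      ∀ x ∈ ((Y.subStep asg B R T L)^[j] ([], [])).2, x ≤ j * (Y.nodes L []).length) := by
  induction j with
  | zero => simp
  | succ j ih =>
    rw [Function.iterate_succ_apply']
    obtain ⟨⟨-, h1⟩, -, h2⟩ := ih
    refine ⟨⟨by simp [Y.subStep], ?_⟩, by simp [Y.subStep], ?_⟩
    · intro x hx
      obtain ⟨k, -, rfl⟩ := List.mem_map.1 hx
      split
      · have := getD_le h1 k
        omega
      · omega
    · intro x hx
      obtain ⟨k, -, rfl⟩ := List.mem_map.1 hx
      have h3 := getD_le h2 k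
      have h4 := lv_le (Y.nodes L []) (Y.subP asg B R T L
        ((Y.subStep asg B R T L)^[j] ([], [])).1) (L.getD k [])
      rw [add_mul, one_mul]
      omega

theorem esize_natList {l : List ℕ} {k b : ℕ} (hk : l.length ≤ k) (h : ∀ x ∈ l, x ≤ b) :
    esize l ≤ k * (2 * esize b + 1) :=
  (esize_list_le (B := esize b) fun x hx => esize_nat_mono (h x hx)).trans
    (Nat.mul_le_mul_right _ hk)

theorem PT_parR {B : α → ℕ} (hB : PT A B) : PT A (fun a => Y.parR (B a)) :=
  PT.mul (PT.const 16) (PT.powConst hB 4)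

theorem PBd_parR {B : α → ℕ} (hB : PBd B) : PBd (fun a => Y.parR (B a)) :=
  (PBd.const 16).mul (hB.pow 4)

theorem PT_parT {B : α → ℕ} (hB : PT A B) : PT A (fun a => Y.parT (B a)) :=
  PT.mul (PT.const 4096) (PT.powConst hB 20)

theorem PBd_parT {B : α → ℕ} (hB : PBd B) : PBd (fun a => Y.parT (B a)) :=
  (PBd.const 4096).mul (hB.pow 20)

theorem PT_sub {asg : List Unit × List (List ℕ) → List ℕ} (ha : PT A asg) {B : α → ℕ}
    {L : α → List Y.Cir} (hB : PT A B) (hBb : PBd B) (hL : PT A L) :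
    PT A (fun a => Y.sub asg (B a) (L a)) := by
  unfold Y.sub
  have hT := PT_parT hB
  have hTb := PBd_parT hBb
  have hR := PT_parR hB
  have hRb := PBd_parR hBb
  have hN : PT A (fun a => Y.nodes (L a) []) := PT_nodes hL (PT.const [])
  have hTN : PT A (fun a => Y.parT (B a) * (Y.nodes (L a) []).length) := PT.mul hT hN.length
  refine PT.snd (PT.iterate' (k := fun a => Y.parT (B a)) (init := fun _ => (([], []) :
    List ℕ × List ℕ)) (step := fun a st => Y.subStep asg (B a) (Y.parR (B a)) (Y.parT (B a))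
      (L a) st) hT hTb (PT.const _) ?_
    (b := fun a => 2 * ((L a).length * (2 * esize (Y.parT (B a)) + 1)) +
      (L a).length * (2 * esize (Y.parT (B a) * (Y.nodes (L a) []).length) + 1) + 1) ?_ ?_)
  · exact PT_subStep ha (hB.comp PT.fst') (hBb.comp (PT.fst' (A := A))) (hR.comp PT.fst')
      (hRb.comp (PT.fst' (A := A))) (hT.comp PT.fst') (hTb.comp (PT.fst' (A := A)))
      (hL.comp PT.fst') PT.snd'
  · exact (((PBd.const 2).mul ((PBd.length hL).mul (((PBd.const 2).mul hT.pbd).add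
      (PBd.const 1)))).add ((PBd.length hL).mul (((PBd.const 2).mul hTN.pbd).add
      (PBd.const 1)))).add (PBd.const 1)
  · intro a j hj
    obtain ⟨⟨h1, h2⟩, h3, h4⟩ := sub_bound asg (B a) (Y.parR (B a)) (Y.parT (B a)) (L a) j
    have e1 := esize_natList h1 fun x hx => (h2 x hx).trans hj
    have e2 := esize_natList h3 fun x hx => (h4 x hx).trans (Nat.mul_le_mul_right _ hj)
    have e3 := esize_pair (((Y.subStep asg (B a) (Y.parR (B a)) (Y.parT (B a)) (L a))^[j]
      ([], [])).1) (((Y.subStep asg (B a) (Y.parR (B a)) (Y.parT (B a)) (L a))^[j]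
      ([], [])).2)
    have e4 : esize ((Y.subStep asg (B a) (Y.parR (B a)) (Y.parT (B a)) (L a))^[j]
      ([], [])) = _ := e3
    rw [e4]
    omega

end Vale.Agent.P333.H802
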