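import Mathlib
import Vale.Agent.P333.Y.Defs
import Vale.Agent.P333.H802.PTsel

set_option linter.all false

/-!
P333, ratio 2: polynomial time of the selection of the contracted circles.
-/

namespace Vale.Agent.P333.H802

open Vale.Agent.P333 Vale.Agent.P333.U Vale.Agent.P333.E Vale.Agent.P333.G Vale.Agent.P333.X
open Vale.Agent.Lib.PolyTime

variable {A : Set Word} {α : Type*} {β γ δ : Type} [Enc α] [Enc β] [Enc γ] [Enc δ]

theorem PT_zs {asg : List Unit × List (List ℕ) → List ℕ} (ha : PT A asg) {B : α → ℕ}
    {L F : α → List Y.Cir} (hB : PT A B) (hBb : PBd B) (hL : PT A L) (hF : PT A F) :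
    PT A (fun a => Y.zs asg (B a) (L a) (F a)) := by
  unfold Y.zs
  have hN := PT_nodes hL hF
  have hP := PT_asgF ha hB hBb hF hN
  have hc : PT A (fun p : α × ℕ => (L p.1).getD p.2 []) :=
    PT.getD (hL.comp PT.fst') PT.snd' (PT.const [])
  refine PT.filter (f := fun a k => big ((L a).getD k []) && !decide ((L a).getD k [] ∈ F a) &&
    decide (Y.lv (Y.nodes (L a) (F a)) (Y.asgF asg (B a) (F a) (Y.nodes (L a) (F a)))
      ((L a).getD k []) = 0)) (PT.range hL.length (PBd.length hL)) ?_
  exact PT.and (PT.and (PT_big hc) (PT_memCir hc (hF.comp PT.fst')).not)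
    (PT.eqNat (PT_lv (hN.comp PT.fst') (hP.comp PT.fst') hc) (PT.const 0))

theorem PT_selUpd {L N : α → List Y.Cir} {P : α → List ℕ} {s : α → Y.Sel} {k : α → ℕ}
    (hL : PT A L) (hN : PT A N) (hP : PT A P) (hs : PT A s) (hk : PT A k) :
    PT A (fun a => Y.selUpd (L a) (N a) (P a) (s a) (k a)) := by
  unfold Y.selUpd
  have hck : PT A (fun a => (L a).getD (k a) []) := PT.getD hL hk (PT.const [])
  have hpk : PT A (fun a => (s a).2.1.getD (k a) 0) := PT.getD hs.snd.fst hk (PT.const 0)
  refine PT.pair (PT.cons hck hs.fst) (PT.pair ?_ (PT.max hs.snd.snd hpk))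
  refine PT.map (f := fun a j => (s a).2.1.getD j 0 + ((s a).2.1.getD (k a) 0 - (s a).2.2) *
    Y.lv (N a) (P a) ((L a).getD j [])) (PT.range hL.length (PBd.length hL)) ?_
  refine PT.add (PT.getD (hs.comp PT.fst').snd.fst PT.snd' (PT.const 0))
    (PT.mul (PT.sub (hpk.comp PT.fst') (hs.comp PT.fst').snd.snd) ?_)
  exact PT_lv (hN.comp PT.fst') (hP.comp PT.fst')
    (PT.getD (hL.comp PT.fst') PT.snd' (PT.const []))

theorem PT_selStep {asg : List Unit × List (List ℕ) → List ℕ} (ha : PT A asg) {B : α → ℕ}
    {L : α → List Y.Cir} {s : α → Y.Sel} (hB : PT A B) (hBb : PBd B) (hL : PT A L)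
    (hs : PT A s) : PT A (fun a => Y.selStep asg (B a) (L a) (s a)) := by
  unfold Y.selStep
  have hz := PT_zs ha hB hBb hL hs.fst
  have hN := PT_nodes hL hs.fst
  refine PT.ifNil hz hs (PT_selUpd hL hN (PT_asgF ha hB hBb hs.fst hN) hs ?_)
  exact PT_aminY (f := fun a j => (s a).2.1.getD j 0) hz
    (PT.getD (hs.comp PT.fst').snd.fst PT.snd' (PT.const 0))

theorem length_nodes_le (L F : List Y.Cir) :
    (Y.nodes L F).length ≤ L.length + L.flatten.length := by
  induction L with
  | nil => simp [Y.nodes]
  | cons c L ih =>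
    have h : Y.nodes (c :: L) F = (if decide (c ∈ F) = true then [c] else
        c.map fun s => [s]) ++ Y.nodes L F := rfl
    rw [h, List.length_append, List.length_cons, List.flatten_cons, List.length_append]
    have h2 : (if decide (c ∈ F) = true then [c] else c.map fun s => [s]).length ≤
        1 + c.length := by
      split
      · simp
      · simp
    omega

/-- Bound for the numbers after `j` steps. -/
def qB (V m j : ℕ) : ℕ := V * (m + 1) ^ j

theorem sel_bound (asg : List Unit × List (List ℕ) → List ℕ) (B : ℕ) (L : List Y.Cir)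
    (s0 : Y.Sel) {V m : ℕ} (hm : L.length + L.flatten.length ≤ m) (h0 : s0.1 = [])
    (h1 : s0.2.1.length ≤ L.length) (h2 : ∀ x ∈ s0.2.1, x ≤ V) (h3 : s0.2.2 ≤ V) (j : ℕ) :
    ((Y.selStep asg B L)^[j] s0).1.length ≤ j ∧
    (∀ c ∈ ((Y.selStep asg B L)^[j] s0).1, esize c ≤ esize L) ∧
    ((Y.selStep asg B L)^[j] s0).2.1.length ≤ L.length ∧
    (∀ x ∈ ((Y.selStep asg B L)^[j] s0).2.1, x ≤ qB V m j) ∧
    ((Y.selStep asg B L)^[j] s0).2.2 ≤ qB V m j := by
  induction j with
  | zero =>
    rw [Function.iterate_zero, id_eq, h0]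
    refine ⟨by simp, by simp, h1, ?_, ?_⟩
    · simpa [qB] using h2
    · simpa [qB] using h3
  | succ j ih =>
    rw [Function.iterate_succ_apply']
    generalize (Y.selStep asg B L)^[j] s0 = s at ih ⊢
    obtain ⟨i1, i2, i3, i4, i5⟩ := ih
    have hq : qB V m j ≤ qB V m (j + 1) := by
      unfold qB
      exact Nat.mul_le_mul_left _ (Nat.pow_le_pow_right (by omega) (by omega))
    have hgc : ∀ k, esize (L.getD k []) ≤ esize L := by
      intro k
      rw [List.getD_eq_getElem?_getD]
      rcases hk : L[k]? with _ | x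
      · exact Nat.zero_le _
      · exact esize_le_of_mem (List.mem_of_getElem? hk)
    have hcons : ∀ k, ∀ c ∈ L.getD k [] :: s.1, esize c ≤ esize L := by
      intro k c hc
      rcases List.mem_cons.1 hc with rfl | hc
      · exact hgc k
      · exact i2 c hc
    unfold Y.selStep
    split
    · exact ⟨by omega, i2, i3, fun x hx => (i4 x hx).trans hq, i5.trans hq⟩
    · generalize Y.amin (fun j => s.2.1.getD j 0) 0 (Y.zs asg B L s.1) = k
      generalize hP : Y.asgF asg B s.1 (Y.nodes L s.1) = P
      have hN : (Y.nodes L s.1).length ≤ m := (length_nodes_le L s.1).trans hm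
      generalize Y.nodes L s.1 = N at hN hP ⊢
      have hk : s.2.1.getD k 0 ≤ qB V m j := getD_le i4 k
      unfold Y.selUpd
      refine ⟨?_, hcons k, by simp, ?_, max_le (i5.trans hq) (hk.trans hq)⟩
      · show (L.getD k [] :: s.1).length ≤ j + 1
        rw [List.length_cons]
        omega
      · intro x hx
        obtain ⟨i, -, rfl⟩ := List.mem_map.1 hx
        have e1 := getD_le i4 i
        have e2 := lv_le N P (L.getD i [])
        have e3 : (s.2.1.getD k 0 - s.2.2) * Y.lv N P (L.getD i []) ≤ qB V m j * m :=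
          Nat.mul_le_mul (by omega) (e2.trans hN)
        have e4 : qB V m (j + 1) = qB V m j + qB V m j * m := by
          unfold qB
          ring
        omega

theorem sub_len (asg : List Unit × List (List ℕ) → List ℕ) (B : ℕ) (L : List Y.Cir) :
    (Y.sub asg B L).length ≤ L.length :=
  (sub_bound asg B (Y.parR B) (Y.parT B) L (Y.parT B)).2.1

theorem sub_le (asg : List Unit × List (List ℕ) → List ℕ) (B : ℕ) (L : List Y.Cir) :
    ∀ x ∈ Y.sub asg B L, x ≤ Y.parT B * (L.length + L.flatten.length + 1) := by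
  intro x hx
  refine ((sub_bound asg B (Y.parR B) (Y.parT B) L (Y.parT B)).2.2 x hx).trans
    (Nat.mul_le_mul_left _ ?_)
  have := length_nodes_le L []
  omega

theorem PT_selF {asg : List Unit × List (List ℕ) → List ℕ} (ha : PT A asg) {B : α → ℕ}
    {L : α → List Y.Cir} (hB : PT A B) (hBb : PBd B) (hL : PT A L) :
    PT A (fun a => Y.selF asg (B a) (L a)) := by
  unfold Y.selF
  have hT := PT_parT hB
  have hlen : PT A (fun a => (L a).length) := hL.length
  have hlenb : PBd (fun a => (L a).length) := PBd.length hL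
  have hm : PT A (fun a => (L a).length + (L a).flatten.length + 1) :=
    PT.add (PT.add hlen (PT.length (PT.flatten hL))) (PT.const 1)
  have hV : PT A (fun a => Y.parT (B a) * ((L a).length + (L a).flatten.length + 1)) :=
    PT.mul hT hm
  have hQ : PT A (fun a => qB (Y.parT (B a) * ((L a).length + (L a).flatten.length + 1))
      ((L a).length + (L a).flatten.length) (L a).length) :=
    PT.mul hV (PT.pow hm hlen hlenb)
  refine PT.fst (PT.iterate' (k := fun a => (L a).length)
    (init := fun a => (([], Y.sub asg (B a) (L a), Y.parT (B a)) : Y.Sel))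
    (step := fun a s => Y.selStep asg (B a) (L a) s) hlen hlenb
    (PT.pair (PT.const []) (PT.pair (PT_sub ha hB hBb hL) hT))
    (PT_selStep ha (hB.comp PT.fst') (hBb.comp (PT.fst' (A := A))) (hL.comp PT.fst') PT.snd')
    (b := fun a => 2 * ((L a).length * (2 * esize (L a) + 1)) + (2 * ((L a).length *
      (2 * esize (qB (Y.parT (B a) * ((L a).length + (L a).flatten.length + 1))
        ((L a).length + (L a).flatten.length) (L a).length) + 1)) +
      esize (qB (Y.parT (B a) * ((L a).length + (L a).flatten.length + 1))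
        ((L a).length + (L a).flatten.length) (L a).length) + 1) + 1) ?_ ?_)
  · exact ((((PBd.const 2).mul (hlenb.mul (((PBd.const 2).mul hL.pbd).add (PBd.const 1)))).add
      ((((PBd.const 2).mul (hlenb.mul (((PBd.const 2).mul hQ.pbd).add (PBd.const 1)))).add
        hQ.pbd).add (PBd.const 1))).add (PBd.const 1))
  · intro a j hj
    obtain ⟨i1, i2, i3, i4, i5⟩ := sel_bound asg (B a) (L a)
      ([], Y.sub asg (B a) (L a), Y.parT (B a)) (V := Y.parT (B a) *
        ((L a).length + (L a).flatten.length + 1)) (le_refl _) rfl (sub_len _ _ _)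
      (sub_le _ _ _) (Nat.le_mul_of_pos_right _ (by omega)) j
    have hq : qB (Y.parT (B a) * ((L a).length + (L a).flatten.length + 1))
        ((L a).length + (L a).flatten.length) j ≤
        qB (Y.parT (B a) * ((L a).length + (L a).flatten.length + 1))
        ((L a).length + (L a).flatten.length) (L a).length := by
      unfold qB
      exact Nat.mul_le_mul_left _ (Nat.pow_le_pow_right (by omega) hj)
    generalize (Y.selStep asg (B a) (L a))^[j] ([], Y.sub asg (B a) (L a), Y.parT (B a)) = s
      at i1 i2 i3 i4 i5 ⊢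
    obtain ⟨s1, s2, s3⟩ := s
    have e1 : esize s1 ≤ (L a).length * (2 * esize (L a) + 1) :=
      (esize_list_le (B := esize (L a)) i2).trans (Nat.mul_le_mul_right _ (i1.trans hj))
    have e2 := esize_natList i3 fun x hx => (i4 x hx).trans hq
    have e3 := esize_nat_mono (i5.trans hq)
    rw [esize_pair, esize_pair]
    dsimp only at e2 e3
    omega

/-- The last assignment is computable in polynomial time. -/
theorem PT_lastP {asg : List Unit × List (List ℕ) → List ℕ} (ha : PT A asg)
    {S : α → List (List ℕ)} {L : α → List Y.Cir} (hS : PT A S) (hL : PT A L) :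
    PT A (fun a => Y.lastP asg (S a) (L a)) := by
  unfold Y.lastP
  have hF := PT_selF ha (PT_bnd hS) (PBd_bnd hS) hL
  exact PT_asgF ha (PT_bnd hS) (PBd_bnd hS) hF (PT_nodes hL hF)

end Vale.Agent.P333.H802
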