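import Mathlib
import Vale.Agent.P333.Bdl.B1

set_option linter.all false

/-!
P333, ratio 2: the algorithm (definitions only).
-/

namespace Vale.Agent.P333.H802

open Vale.Agent.P333 Vale.Agent.P333.U Vale.Agent.Lib.PolyTime

/-- A circle: a cyclic list of strings. -/
abbrev Circ := List (List ℕ)

/-- A node: a string `(false, [s])`, or a decoupled circle `(true, D)` (a hat). -/
abbrev Node := Bool × Circ

/-- The first element (in the order of the list) for which `f` is maximal. -/
def amax {β : Type*} (f : β → ℕ) (b : β) (l : List β) : β :=
  l.foldl (fun b e => if f b < f e then e else b) b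

/-- The first element (in the order of the list) for which `f` is minimal. -/
def amin {β : Type*} (f : β → ℕ) (b : β) (l : List β) : β :=
  l.foldl (fun b e => if f e < f b then e else b) b

/-- The cyclic list `c`, beginning with `s`. -/
def rotTo (s : List ℕ) (c : Circ) : Circ :=
  c.dropWhile (fun t => !decide (t = s)) ++ c.takeWhile (fun t => !decide (t = s))

/-- The successor of `s` in the cyclic list `c`. -/
def nxt (c : Circ) (s : List ℕ) : List ℕ := ((rotTo s c).tail ++ [s]).headD []

/-- The predecessor of `s` in the cyclic list `c`. -/
def prv (c : Circ) (s : List ℕ) : List ℕ := (rotTo s c).getLastD []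

/-- Overlap of `s` and its successor. -/
def eps (c : Circ) (s : List ℕ) : ℕ := ov s (nxt c s)

/-- Overlap of the predecessor of `s` and `s`. -/
def epm (c : Circ) (s : List ℕ) : ℕ := ov (prv c s) s

/-- Twice the gain of the arc from `h` (in the node `n`) to `a` (in the node `m`), plus `K`. -/
def pairVal (K : ℕ) (n m : Node) (e : List ℕ × List ℕ) : ℕ :=
  K + 2 * ov e.1 e.2 - ((if n.1 then eps n.2 e.1 else 0) + (if m.1 then epm m.2 e.2 else 0))

/-- The best strings `h` (in the node `n`), `a` (in the node `m`) for the arc from `n` to `m`. -/
def bestPair (K : ℕ) (n m : Node) : List ℕ × List ℕ :=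
  amax (pairVal K n m) (n.2.headD [], m.2.headD [])
    (n.2.flatMap fun h => m.2.map fun a => (h, a))

/-- Entry of the matrix of the assignment problem; loops at hats are forbidden. -/
def entry (K : ℕ) (n m : Node) : ℕ :=
  if n.1 && decide (n = m) then 0 else pairVal K n m (bestPair K n m)

/-- The nodes: the strings outside the circles of `F`, and the circles of `F`. -/
def nodesOf (S : List (List ℕ)) (F : List Circ) : List Node :=
  ((S.filter fun s => F.all fun D => !decide (s ∈ D)).map fun s => (false, [s])) ++
    F.map fun D => (true, D)

/-- The matrix of the assignment problem. -/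
def matF (K : ℕ) (nodes : List Node) : List (List ℕ) :=
  nodes.map fun n => nodes.map fun m => entry K n m

/-- The arcs `(node, its image)` of the assignment `P`. -/
def arcsOf (nodes : List Node) (P : List ℕ) : List (Node × Node) :=
  (List.range nodes.length).map fun i =>
    (nodes.getD i (false, []), nodes.getD (P.getD i 0) (false, []))

/-- The node is a string of the circle `D`. -/
def inD (D : Circ) (n : Node) : Bool := !n.1 && decide (n.2.headD [] ∈ D)

/-- Number of arcs which leave the strings of the circle `D`. -/
def fD (D : Circ) (arcs : List (Node × Node)) : ℕ :=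
  arcs.countP fun e => inD D e.1 && !inD D e.2

/-- State of the selection: the undecided big circles with their numbers `Φ`, the contracted
circles `F`, the denominator `q`. -/
abbrev SelSt := List (Circ × ℕ) × List Circ × ℕ

/-- The optimal assignment for the nodes of `F`, as a list of arcs. -/
def optArcs (asg : List Unit × List (List ℕ) → List ℕ) (B K : ℕ) (S : List (List ℕ))
    (F : List Circ) : List (Node × Node) :=
  arcsOf (nodesOf S F) (asg (List.replicate B (), matF K (nodesOf S F)))

/-- One step of the selection, given the optimal assignment. -/
def selNext (arcs : List (Node × Node)) (st : SelSt) : SelSt :=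
  match st.1.filter fun p => decide (fD p.1 arcs = 0) with
  | [] => st
  | z :: Z =>
    let z0 := amin (fun p => p.2) z Z
    ((st.1.filter fun p => !decide (p.1 = z0.1)).map
        fun p => (p.1, p.2 + (max st.2.2 z0.2 - st.2.2) * fD p.1 arcs),
      z0.1 :: st.2.1, max st.2.2 z0.2)

/-- One step of the selection. -/
def selStep (asg : List Unit × List (List ℕ) → List ℕ) (B K : ℕ) (S : List (List ℕ))
    (st : SelSt) : SelSt :=
  selNext (optArcs asg B K S st.2.1) st

/-- State of the subgradient method: the big circles with their numbers `μ`, `Φ`. -/
abbrev SubSt := List (Circ × ℕ × ℕ)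

/-- The matrix of a step of the subgradient method. -/
def matS (R : ℕ) (S : List (List ℕ)) (st : SubSt) : List (List ℕ) :=
  S.map fun u => S.map fun v => R * ov u v +
    (st.map fun p => if decide (u ∈ p.1) && !decide (v ∈ p.1) then p.2.1 else 0).sum

/-- One step of the subgradient method. -/
def subStep (asg : List Unit × List (List ℕ) → List ℕ) (B R : ℕ) (S : List (List ℕ))
    (st : SubSt) : SubSt :=
  let arcs := arcsOf (S.map fun s => (false, [s])) (asg (List.replicate B (), matS R S st))
  st.map fun p => (p.1, p.2.1 + 1 - fD p.1 arcs, p.2.2 + fD p.1 arcs)

/-- The walk along the circle `D`: from `a` one lap, and further to `h`. -/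
def trav (D : Circ) (a h : List ℕ) : Circ :=
  rotTo a D ++ (rotTo a D).take (((rotTo a D).idxOf h + 1) % D.length)

/-- The closed walk given by a cycle of nodes. -/
def expand (K : ℕ) (c : List Node) : Circ :=
  let bp := (cprs (false, []) c).map fun e => bestPair K e.1 e.2
  (c.zip (((bp.getLastD ([], [])).2 :: bp.dropLast.map Prod.snd).zip (bp.map Prod.fst))).flatMap
    fun e => if e.1.1 then trav e.1.2 e.2.1 e.2.2 else e.1.2

/-- The cycles of an assignment, as lists of nodes. -/
def cyclesOf (nodes : List Node) (P : List ℕ) : List (List Node) :=
  (joinFold nodes.length ((List.range nodes.length).map fun i => (i, P.getD i 0))).map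
    fun c => c.map fun i => nodes.getD i (false, [])

/-- Joining all closed walks which visit the string `s`. -/
def splice (L : List Circ) (s : List ℕ) : List Circ :=
  if (L.filter fun c => decide (s ∈ c)).isEmpty then L else
    ((L.filter fun c => decide (s ∈ c)).flatMap (rotTo s)) :: (L.filter fun c => !decide (s ∈ c))

/-- The shortest word of a list. -/
def shortestW (b : List ℕ) (l : List (List ℕ)) : List ℕ := amin List.length b l

/-- The windows of length at most `2 |W|` of the periodic word of the closed walk `c`. -/
def windows (c : Circ) : List (List ℕ) :=
  let W := (mergeL c).take (cycW c)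
  (List.range W.length).flatMap fun p => (List.range (2 * W.length + 1)).map fun l =>
    ((W ++ (W ++ (W ++ W))).drop p).take l

/-- The word for a closed walk without the additional letter. -/
def winOut (L : List Circ) (c : Circ) : List ℕ :=
  shortestW (mergeL c) ((windows c ++ L.map mergeL).filter fun x => c.all fun s => infB s x)

/-- The word for a closed walk. -/
def outW (d : ℕ) (L : List Circ) (c : Circ) : List ℕ :=
  if decide ([d] ∈ c) then mergeL (rotTo [d] c).tail else winOut L c

/-- A letter which does not occur. -/
def fresh (S : List (List ℕ)) : ℕ := (S.flatten.foldl max 0) + 1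

/-- The big circles. -/
def bigs (L : List Circ) : List Circ := L.filter fun c => decide (cycW c < cycO c)

/-- The closed walks: the circles outside `F`, and the cycles of the assignment. -/
def walks (K : ℕ) (L F : List Circ) (nodes : List Node) (P : List ℕ) : List Circ :=
  (L.filter fun c => !decide (c ∈ F)) ++ (cyclesOf nodes P).map (expand K)

/-- The output for a minimum cycle cover `L` of a substring-free family, given the set `F` and the
assignment `P`. -/
def outF (K : ℕ) (L F : List Circ) (P : List ℕ) : List ℕ :=
  let d := fresh L.flatten
  let S := [d] :: L.flatten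
  (S.foldl splice (walks K L F (nodesOf S F) P)).flatMap (outW d L)

/-- Total length of the strings, with the additional letter. -/
def totM (L : List Circ) : ℕ := L.flatten.flatten.length + 1

/-- The constant `K`. -/
def kK (L : List Circ) : ℕ := 4 * totM L * totM L + 1

/-- Bound for the entries of the matrices of the selection. -/
def bB (L : List Circ) : ℕ := kK L + 2 * totM L

/-- Factor of the overlaps in the subgradient method. -/
def rR (L : List Circ) : ℕ := 16 * totM L ^ 2

/-- Number of steps of the subgradient method. -/
def tT (L : List Circ) : ℕ := (64 * totM L ^ 3) ^ 2 * (2 * rR L * totM L + totM L ^ 2)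

/-- Bound for the entries of the matrices of the subgradient method. -/
def bS (L : List Circ) : ℕ := rR L * totM L + totM L * tT L

/-- Result of the subgradient method. -/
def subRes (asg : List Unit × List (List ℕ) → List ℕ) (L : List Circ) : SubSt :=
  (subStep asg (bS L) (rR L) ([fresh L.flatten] :: L.flatten))^[tT L]
    ((bigs L).map fun D => (D, 0, 0))

/-- Result of the selection. -/
def selRes (asg : List Unit × List (List ℕ) → List ℕ) (L : List Circ) : SelSt :=
  (selStep asg (bB L) (kK L) ([fresh L.flatten] :: L.flatten))^[L.length]
    ((subRes asg L).map fun p => (p.1, p.2.2), [], tT L)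

/-- The output for a minimum cycle cover `L` of a substring-free family. -/
def algL (asg : List Unit × List (List ℕ) → List ℕ) (L : List Circ) : List ℕ :=
  let F := (selRes asg L).2.1
  outF (kK L) L F
    (asg (List.replicate (bB L) (), matF (kK L) (nodesOf ([fresh L.flatten] :: L.flatten) F)))

/-- The algorithm. -/
def alg2 (cover : List (List ℕ) → List (List (List ℕ)))
    (asg : List Unit × List (List ℕ) → List ℕ) (S : List (List ℕ)) : List ℕ :=
  algL asg (cover (clean S))

end Vale.Agent.P333.H802
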